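import Mathlib

namespace Vale.Agent.P201aux

theorem arch_step {K G : Type*} [Field K] (φ : AbsoluteValue K ℝ) (x y : G → K) (S : Finset G)
    (hS : ∀ h ∈ S, x h ≠ 0) (g : G) (hg : g ∈ S)
    (hdom : ∑ h ∈ S, φ (x h) ≤ 2 * φ (x g)) (T : G → G)
    (hmax : ∀ b, φ (y b) ≤ φ (y (T g)))
    (hsum : ∑ h ∈ S, x h * y (T h) = 0) : ∀ h ∈ S, φ (y (T h)) = φ (y (T g)) := by
  classical
  have h1 : x g * y (T g) = - ∑ h ∈ S.erase g, x h * y (T h) := by
    rw [← Finset.add_sum_erase S _ hg] at hsum
    linear_combination hsum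
  have h2 : φ (x g) * φ (y (T g)) ≤ ∑ h ∈ S.erase g, φ (x h) * φ (y (T h)) := by
    rw [← map_mul, h1, map_neg_eq_map]
    refine (φ.sum_le _ _).trans_eq ?_
    simp
  have h3 : ∑ h ∈ S.erase g, φ (x h) ≤ φ (x g) := by
    rw [← Finset.add_sum_erase S _ hg] at hdom
    linarith
  have h4 : ∑ h ∈ S.erase g, φ (x h) * (φ (y (T g)) - φ (y (T h))) ≤ 0 := by
    simp_rw [mul_sub]
    rw [Finset.sum_sub_distrib, ← Finset.sum_mul]
    have := mul_le_mul_of_nonneg_right h3 (φ.nonneg (y (T g)))
    linarith
  have h5 : ∀ h ∈ S.erase g, 0 ≤ φ (x h) * (φ (y (T g)) - φ (y (T h))) := by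
    intro h _
    exact mul_nonneg (φ.nonneg _) (sub_nonneg.2 (hmax _))
  have h6 : ∀ h ∈ S.erase g, φ (x h) * (φ (y (T g)) - φ (y (T h))) = 0 :=
    (Finset.sum_eq_zero_iff_of_nonneg h5).1 (le_antisymm h4 (Finset.sum_nonneg h5))
  intro h hh
  by_cases hhg : h = g
  · rw [hhg]
  · have := h6 h (Finset.mem_erase.2 ⟨hhg, hh⟩)
    rcases mul_eq_zero.1 this with h7 | h7
    · exact absurd ((φ.eq_zero).1 h7) (hS h hh)
    · linarith

theorem no_finite_invariant {G : Type*} [Group G] (s : G) (hs : ¬ IsOfFinOrder s) (N : Set G)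
    (hN : N.Finite) (hne : N.Nonempty) :
    (¬ ∀ a ∈ N, s * a ∈ N) ∧ (¬ ∀ a ∈ N, a * s ∈ N) := by
  have hinj : Function.Injective (fun n : ℕ => s ^ n) := injective_pow_iff_not_isOfFinOrder.2 hs
  obtain ⟨a, ha⟩ := hne
  constructor
  · intro h
    have hmem : ∀ n : ℕ, s ^ n * a ∈ N := by
      intro n
      induction n with
      | zero => simpa using ha
      | succ n ih => rw [pow_succ', mul_assoc]; exact h _ ih
    have : (Set.range (fun n : ℕ => s ^ n * a)).Infinite :=
      Set.infinite_range_of_injective (fun m n hmn => hinj (mul_right_cancel hmn))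
    exact this (hN.subset (by rintro _ ⟨n, rfl⟩; exact hmem n))
  · intro h
    have hmem : ∀ n : ℕ, a * s ^ n ∈ N := by
      intro n
      induction n with
      | zero => simpa using ha
      | succ n ih => rw [pow_succ, ← mul_assoc]; exact h _ ih
    have : (Set.range (fun n : ℕ => a * s ^ n)).Infinite :=
      Set.infinite_range_of_injective (fun m n hmn => hinj (mul_left_cancel hmn))
    exact this (hN.subset (by rintro _ ⟨n, rfl⟩; exact hmem n))

open MonoidAlgebra in
theorem no_dominant {K G : Type*} [Field K] [Group G]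
    (hG : ∀ g : G, g ≠ 1 → ¬ IsOfFinOrder g) {x y : MonoidAlgebra K G}
    (hx : x ≠ 0) (hy : y ≠ 0) (hxy : x * y = 0 ∨ y * x = 0) (φ : AbsoluteValue K ℝ) (g : G) :
    2 * φ (x.coeff g) < ∑ h ∈ x.coeff.support, φ (x.coeff h) := by
  by_contra hlt
  push Not at hlt
  have hSne : x.coeff.support.Nonempty := by
    rw [Finsupp.support_nonempty_iff]; simpa using hx
  have hS : ∀ h ∈ x.coeff.support, x.coeff h ≠ 0 := fun h hh => by simpa using hh
  have hg : g ∈ x.coeff.support := by
    by_contra hg
    have hg0 : x.coeff g = 0 := by simpa using hg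
    rw [hg0] at hlt
    have : 0 < ∑ h ∈ x.coeff.support, φ (x.coeff h) :=
      Finset.sum_pos (fun h hh => φ.pos (hS h hh)) hSne
    simp at hlt
    linarith
  have hyne : y.coeff.support.Nonempty := by
    rw [Finsupp.support_nonempty_iff]; simpa using hy
  obtain ⟨b, hb, hbmax⟩ := Finset.exists_max_image y.coeff.support (fun a => φ (y.coeff a)) hyne
  have hb0 : y.coeff b ≠ 0 := by simpa using hb
  have hbmax' : ∀ a, φ (y.coeff a) ≤ φ (y.coeff b) := by
    intro a
    by_cases ha : y.coeff a = 0
    · rw [ha, map_zero]; exact φ.nonneg _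
    · exact hbmax a (by simpa using ha)
  let N : Set G := {a | φ (y.coeff a) = φ (y.coeff b)}
  have hNfin : N.Finite := by
    refine y.coeff.support.finite_toSet.subset ?_
    intro a (ha : φ (y.coeff a) = φ (y.coeff b))
    have : φ (y.coeff a) ≠ 0 := by rw [ha]; exact (φ.pos hb0).ne'
    have : y.coeff a ≠ 0 := fun h => this (by rw [h, map_zero])
    simpa using this
  have hNne : N.Nonempty := ⟨b, rfl⟩
  -- the closure property
  have key : ∀ h ∈ x.coeff.support,
      (x * y = 0 → ∀ a ∈ N, (h⁻¹ * g) * a ∈ N) ∧ (y * x = 0 → ∀ a ∈ N, a * (g * h⁻¹) ∈ N) := by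
    intro h hh
    constructor
    · intro h0 a ha
      have hsum : ∑ k ∈ x.coeff.support, x.coeff k * y.coeff (k⁻¹ * (g * a)) = 0 := by
        have := coeff_mul_apply_left x y (g * a)
        rw [h0] at this
        simpa [Finsupp.sum] using this.symm
      have := arch_step φ x.coeff y.coeff x.coeff.support hS g hg hlt
        (fun k => k⁻¹ * (g * a)) (fun c => by
          simp only [inv_mul_cancel_left]
          rw [show φ (y.coeff a) = φ (y.coeff b) from ha]
          exact hbmax' c) hsum h hh
      simp only [inv_mul_cancel_left] at this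
      change φ (y.coeff (h⁻¹ * g * a)) = φ (y.coeff b)
      rw [mul_assoc, this]
      exact ha
    · intro h0 a ha
      have hsum : ∑ k ∈ x.coeff.support, x.coeff k * y.coeff (a * g * k⁻¹) = 0 := by
        have := coeff_mul_apply_right y x (a * g)
        rw [h0] at this
        simp only [coeff_zero, Finsupp.coe_zero, Pi.zero_apply, Finsupp.sum] at this
        rw [this]
        exact Finset.sum_congr rfl (fun k _ => mul_comm _ _)
      have := arch_step φ x.coeff y.coeff x.coeff.support hS g hg hlt
        (fun k => a * g * k⁻¹) (fun c => by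
          simp only [mul_inv_cancel_right]
          rw [show φ (y.coeff a) = φ (y.coeff b) from ha]
          exact hbmax' c) hsum h hh
      simp only [mul_inv_cancel_right] at this
      change φ (y.coeff (a * (g * h⁻¹))) = φ (y.coeff b)
      rw [← mul_assoc, this]
      exact ha
  by_cases hother : ∃ h ∈ x.coeff.support, h ≠ g
  · obtain ⟨h, hh, hne⟩ := hother
    rcases hxy with h0 | h0
    · have hs : ¬ IsOfFinOrder (h⁻¹ * g) := hG _ (by
        intro h1; apply hne; exact inv_mul_eq_one.1 h1)
      exact (no_finite_invariant _ hs N hNfin hNne).1 ((key h hh).1 h0)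
    · have hs : ¬ IsOfFinOrder (g * h⁻¹) := hG _ (by
        intro h1; apply hne; exact (mul_inv_eq_one.1 h1).symm)
      exact (no_finite_invariant _ hs N hNfin hNne).2 ((key h hh).2 h0)
  · push Not at hother
    have hsupp : x.coeff.support = {g} := by
      ext a
      constructor
      · intro ha; simp [hother a ha]
      · intro ha
        rw [Finset.mem_singleton.1 ha]; exact hg
    rcases hxy with h0 | h0
    · have := coeff_mul_apply_left x y (g * b)
      rw [h0] at this
      simp only [coeff_zero, Finsupp.coe_zero, Pi.zero_apply, Finsupp.sum, hsupp,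
        Finset.sum_singleton, inv_mul_cancel_left] at this
      rcases mul_eq_zero.1 this.symm with h1 | h1
      · exact hS g hg h1
      · exact hb0 h1
    · have := coeff_mul_apply_right y x (b * g)
      rw [h0] at this
      simp only [coeff_zero, Finsupp.coe_zero, Pi.zero_apply, Finsupp.sum, hsupp,
        Finset.sum_singleton, mul_inv_cancel_right] at this
      rcases mul_eq_zero.1 this.symm with h1 | h1
      · exact hb0 h1
      · exact hS g hg h1

end Vale.Agent.P201aux
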