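import Mathlib

open MonoidAlgebra

namespace Vale.Agent.P201aux

variable {k G : Type*} [Semiring k] [Group G]

/-- left coset slices -/
theorem slice_left (H : Subgroup G) (c : MonoidAlgebra k H) (y : MonoidAlgebra k G) (t : G)
    (hinj : Function.Injective (fun h : H => (h : G) * t)) :
    comapDomain (fun h : H => (h : G) * t) hinj (mapDomain (H.subtype) c * y) =
      c * comapDomain (fun h : H => (h : G) * t) hinj y := by
  induction c using MonoidAlgebra.induction_linear with
  | zero => simp
  | add a b ha hb => rw [mapDomain_add, add_mul, comapDomain_add, ha, hb, add_mul]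
  | single a r =>
    ext h
    simp [mul_assoc]

theorem slice_right (H : Subgroup G) (c : MonoidAlgebra k H) (y : MonoidAlgebra k G) (t : G)
    (hinj : Function.Injective (fun h : H => t * (h : G))) :
    comapDomain (fun h : H => t * (h : G)) hinj (y * mapDomain (H.subtype) c) =
      comapDomain (fun h : H => t * (h : G)) hinj y * c := by
  induction c using MonoidAlgebra.induction_linear with
  | zero => simp
  | add a b ha hb => rw [mapDomain_add, mul_add, comapDomain_add, ha, hb, mul_add]
  | single a r =>
    ext h
    simp [mul_assoc]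

theorem inj_left (H : Subgroup G) (t : G) : Function.Injective (fun h : H => (h : G) * t) := by
  intro a b hab
  simpa using hab

theorem inj_right (H : Subgroup G) (t : G) : Function.Injective (fun h : H => t * (h : G)) := by
  intro a b hab
  simpa using hab

theorem eq_zero_left (H : Subgroup G) [NoZeroDivisors (MonoidAlgebra k H)] {c : MonoidAlgebra k H}
    (hc : c ≠ 0) {y : MonoidAlgebra k G} (h : mapDomain (H.subtype) c * y = 0) : y = 0 := by
  ext t
  have h1 := slice_left H c y t (inj_left H t)
  rw [h, comapDomain_zero] at h1
  have h2 := (mul_eq_zero.mp h1.symm).resolve_left hc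
  have h3 := congrArg (fun z => z.coeff 1) h2
  simpa using h3

theorem eq_zero_right (H : Subgroup G) [NoZeroDivisors (MonoidAlgebra k H)] {c : MonoidAlgebra k H}
    (hc : c ≠ 0) {y : MonoidAlgebra k G} (h : y * mapDomain (H.subtype) c = 0) : y = 0 := by
  ext t
  have h1 := slice_right H c y t (inj_right H t)
  rw [h, comapDomain_zero] at h1
  have h2 := (mul_eq_zero.mp h1.symm).resolve_right hc
  have h3 := congrArg (fun z => z.coeff 1) h2
  simpa using h3

/-- an element supported on a left coset `gH` is `g` times an element of `k[H]` -/
theorem exists_of_support (H : Subgroup G) (g : G) {x : MonoidAlgebra k G} (hx : x ≠ 0)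
    (hs : ∀ a, x.coeff a ≠ 0 → g⁻¹ * a ∈ H) :
    ∃ c : MonoidAlgebra k H, c ≠ 0 ∧ mapDomain (H.subtype) c = single g⁻¹ 1 * x := by
  refine ⟨comapDomain H.subtype H.subtype_injective (single g⁻¹ 1 * x), ?_, ?_⟩
  · intro h0
    have h1 := congrArg (mapDomain H.subtype) h0
    rw [mapDomain_comapDomain, mapDomain_zero] at h1
    · apply hx
      have := congrArg (fun z => single g 1 * z) h1
      simpa [← mul_assoc, ← one_def] using this
    · intro a ha
      have : x.coeff (g * a) ≠ 0 := by simpa using ha
      have := hs _ this
      simpa using this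
  · rw [mapDomain_comapDomain]
    intro a ha
    have : x.coeff (g * a) ≠ 0 := by simpa using ha
    have := hs _ this
    simpa using this

theorem eq_zero_of_support (H : Subgroup G) [NoZeroDivisors (MonoidAlgebra k H)] (g : G)
    {x y : MonoidAlgebra k G} (hx : x ≠ 0)
    (hs : ∀ a, x.coeff a ≠ 0 → g⁻¹ * a ∈ H) (h : x * y = 0 ∨ y * x = 0) : y = 0 := by
  obtain ⟨c, hc, hcx⟩ := exists_of_support H g hx hs
  rcases h with h | h
  · apply eq_zero_left H hc
    rw [hcx, mul_assoc, h, mul_zero]
  · have h2 : (y * single g 1) * mapDomain (H.subtype) c = 0 := by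
      rw [hcx, mul_assoc, ← mul_assoc (single g 1)]
      simp [← one_def, h]
    have h3 := eq_zero_right H hc h2
    have := congrArg (fun z => z * single g⁻¹ 1) h3
    simpa [mul_assoc, ← one_def] using this

end Vale.Agent.P201aux
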